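import Vale.Agent.P246.R3.H816.Defs

/-! # P246.FreeFactor, row PRES: killing elements in a presentation -/

namespace Vale.Agent.P246.H808

open Vale.Agent.P246 Vale.Agent.P246.H816

variable {G H : Type} [Group G] [Group H]

theorem rh_elt (φ : H →* G) (g : H) : rh φ (elt g) = elt (φ g) := by
  rw [rh, elt, elt, MonoidAlgebra.mapDomainRingHom_apply, MonoidAlgebra.mapDomain_single]

/-- naturality of the Fox derivatives -/
theorem fox_nat (φ : H →* G) {m : ℕ} (x : Fin m → H) (w : List (Fin m × Bool)) (k : Fin m) :
    foxWord (fun i => φ (x i)) w k = rh φ (foxWord x w k) := by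
  induction w generalizing k with
  | nil =>
    rw [foxWord_nil, foxWord_nil, Pi.zero_apply, Pi.zero_apply, map_zero]
  | cons a w ih =>
    obtain ⟨i, b⟩ := a
    have hs : ∀ c : Prop, [Decidable c] → rh φ (if c then (1 : ZG H) else 0) =
        if c then (1 : ZG G) else 0 := by
      intro c _
      split_ifs
      · exact map_one _
      · exact map_zero _
    cases b
    · show elt (φ (x i))⁻¹ * (foxWord (fun i => φ (x i)) w k - if k = i then 1 else 0) =
        rh φ (elt (x i)⁻¹ * (foxWord x w k - if k = i then 1 else 0))
      rw [map_mul, map_sub, hs, rh_elt, map_inv, ih]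
    · show (if k = i then 1 else 0) + elt (φ (x i)) * foxWord (fun i => φ (x i)) w k =
        rh φ ((if k = i then 1 else 0) + elt (x i) * foxWord x w k)
      rw [map_add, map_mul, hs, rh_elt, ih]

/-- **Row PRES.** -/
theorem row : SpecPRES := by
  intro G H _ _ ρ n t hρ hker P w hw
  have hl : FreeGroup.lift (fun i => ρ (P.x i)) = ρ.comp (FreeGroup.lift P.x) := by
    apply FreeGroup.ext_hom
    intro i
    rw [FreeGroup.lift_apply_of, MonoidHom.comp_apply, FreeGroup.lift_apply_of]
  have hs : Function.Surjective (FreeGroup.lift fun i => ρ (P.x i)) := by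
    rw [hl]
    exact hρ.comp P.surj
  have hk : (FreeGroup.lift fun i => ρ (P.x i)).ker =
      Subgroup.normalClosure (Set.range (Fin.append P.r w)) := by
    rw [hl]
    apply le_antisymm
    · intro u hu
      have hu1 : FreeGroup.lift P.x u ∈ ρ.ker := hu
      rw [hker] at hu1
      have hN : (Subgroup.map (FreeGroup.lift P.x)
          (Subgroup.normalClosure (Set.range (Fin.append P.r w)))).Normal :=
        Subgroup.Normal.map inferInstance _ P.surj
      have h1 : Subgroup.normalClosure (Set.range t) ≤ Subgroup.map (FreeGroup.lift P.x)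
          (Subgroup.normalClosure (Set.range (Fin.append P.r w))) := by
        apply Subgroup.normalClosure_le_normal
        rintro _ ⟨j, rfl⟩
        refine ⟨w j, Subgroup.subset_normalClosure ⟨Fin.natAdd P.rels j, ?_⟩, hw j⟩
        exact Fin.append_right _ _ _
      obtain ⟨v, hv, hvu⟩ := h1 hu1
      have h2 : v⁻¹ * u ∈ (FreeGroup.lift P.x).ker := by
        rw [MonoidHom.mem_ker, map_mul, map_inv, hvu, inv_mul_cancel]
      rw [P.ker_eq] at h2
      have h3 : Subgroup.normalClosure (Set.range P.r) ≤
          Subgroup.normalClosure (Set.range (Fin.append P.r w)) := by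
        apply Subgroup.normalClosure_le_normal
        rintro _ ⟨j, rfl⟩
        exact Subgroup.subset_normalClosure ⟨Fin.castAdd n j, Fin.append_left _ _ _⟩
      have h4 := Subgroup.mul_mem _ hv (h3 h2)
      rwa [mul_inv_cancel_left] at h4
    · apply Subgroup.normalClosure_le_normal
      rintro _ ⟨j, rfl⟩
      induction j using Fin.addCases with
      | left j =>
        rw [Fin.append_left]
        have h1 : P.r j ∈ (FreeGroup.lift P.x).ker := by
          rw [P.ker_eq]
          exact Subgroup.subset_normalClosure ⟨j, rfl⟩
        show ρ (FreeGroup.lift P.x (P.r j)) = 1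
        rw [MonoidHom.mem_ker.1 h1, map_one]
      | right j =>
        rw [Fin.append_right]
        have h1 : t j ∈ ρ.ker := by
          rw [hker]
          exact Subgroup.subset_normalClosure ⟨j, rfl⟩
        show ρ (FreeGroup.lift P.x (w j)) = 1
        rw [hw]
        exact h1
  refine ⟨hs, hk, ?_, ?_⟩
  · intro u
    show Fintype.linearCombination (ZG G) (fun i => elt (ρ (P.x i)) - 1) (fun i => rh ρ (u i)) =
      rh ρ (Fintype.linearCombination (ZG H) (fun i => elt (P.x i) - 1) u)
    rw [Fintype.linearCombination_apply, Fintype.linearCombination_apply, map_sum]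
    refine Finset.sum_congr rfl fun i _ => ?_
    rw [smul_eq_mul, smul_eq_mul, map_mul, map_sub, rh_elt, map_one]
  · intro x l
    show Fintype.linearCombination (ZG G)
        (fun j => foxWord (fun i => ρ (P.x i)) (Fin.append P.r w j : FreeGroup (Fin P.gens)).toWord)
        (Fin.append (fun i => rh ρ (x i)) l) = _
    rw [Fintype.linearCombination_apply, Fin.sum_univ_add]
    funext k
    rw [Pi.add_apply, Finset.sum_apply, Finset.sum_apply]
    congr 1
    · show _ = rh ρ (Fintype.linearCombination (ZG H)
        (fun j => foxWord P.x (P.r j).toWord) x k)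
      rw [Fintype.linearCombination_apply, Finset.sum_apply, map_sum]
      refine Finset.sum_congr rfl fun i _ => ?_
      rw [Fin.append_left, Fin.append_left, Pi.smul_apply, Pi.smul_apply, smul_eq_mul,
        smul_eq_mul, map_mul, fox_nat]
    · refine Finset.sum_congr rfl fun j _ => ?_
      rw [Fin.append_right, Fin.append_right, Pi.smul_apply, smul_eq_mul, fox_nat]

end Vale.Agent.P246.H808
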